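import Vale.Agent.P225.Main

namespace Vale.Agent.Results.P225.A_full

open Vale.Agent.P225

theorem result :
    ∃ (n k : ℕ) (g : (Fin n → ℝ) → Matrix (Fin n) (Fin n) ℝ), 2 ≤ n ∧ 1 ≤ k ∧
      IsSmoothMetric g ∧ IsCompleteMetric g ∧ RicciNonneg g ∧
      ∃ u : Fin ((n + k - 1).choose k + (n + k - 2).choose (k - 1) + 1) → (Fin n → ℝ) → ℝ,
        LinearIndependent ℝ u ∧ ∀ a, IsPolyHarmonic g k (u a) :=
  counterexample

end Vale.Agent.Results.P225.A_full
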